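import Vale.Agent.Lib.P038.Sat.Shapes.S6_8t
noncomputable section
namespace Vale.Agent.Lib.P038.Sat.I.M2_8
open Vale.Agent.Lib.P038.Sat
def W : Nat := 90
def M : Nat := 1237940039285380274899124223
def GT : Nat := 2603964105676800852096922492993365923605833632854816344359590666021424096212585690015566930164936311497453338779564810454511114433738532932478629059768506937049381303760117411954426665315907443273521196410371066754360344211775695807603125990833759561200485043381891654545448272309556092839262060612762818132035087828126955870397407897553104364595040810676870425561290886707898369937338704187181421820024416437099403167693341288775117282599838179197078254370651816450768368108393519030852250064596896574126778663424897086743431937231258331824563264119920512194731896981923744775626410672936511499860732414107422471379369610544767315861176263980884225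
def h0 : T := (T.l (nat_lit 0))
def H : T := h0
theorem hlast : getB H 0 = 0 := by decide +kernel
end Vale.Agent.Lib.P038.Sat.I.M2_8
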